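import Vale.Agent.H17.P176.Red

/-!
# The fibration inequality for finitistic dimensions (P176)
-/

namespace Vale.Agent.H17.P176

open CategoryTheory Submodule

universe u

section
variable {A L : Type u} [Ring A] [Ring L] [Module A L]

/-- The ideal `I` of `L` is `J L` for a subset `J` of `A`. -/
def IsFibre (I : Ideal L) (J : Set A) : Prop :=
  (∀ j ∈ J, j • (1 : L) ∈ I) ∧
    ∀ x ∈ I, x ∈ AddSubgroup.closure {z : L | ∃ j ∈ J, ∃ y : L, z = j • y}

variable {I : Ideal L} {J : Set A}
variable {F N K : Type u} [AddCommGroup F] [Module L F] [Module A F] [IsScalarTower A L F]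
  [AddCommGroup N] [Module L N] [Module A N] [IsScalarTower A L N]
  [AddCommGroup K] [Module L K] [Module A K] [IsScalarTower A L K]

theorem retract_mem (h : IsFibre I J) (r : F →ₗ[A] K) {x : F}
    (hx : x ∈ (I • ⊤ : Submodule L F)) : r x ∈ (I • ⊤ : Submodule L K) := by
  have key : ∀ z ∈ AddSubgroup.closure {z : L | ∃ j ∈ J, ∃ y : L, z = j • y}, ∀ m : F,
      r (z • m) ∈ (I • ⊤ : Submodule L K) := by
    intro z hz m
    induction hz using AddSubgroup.closure_induction with
    | mem z hz =>
      obtain ⟨j, hj, y, rfl⟩ := hz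
      rw [smul_assoc, map_smul]
      have h2 : j • r (y • m) = (j • (1 : L)) • r (y • m) := by rw [smul_assoc, one_smul]
      rw [h2]
      exact Submodule.smul_mem_smul (h.1 j hj) trivial
    | zero => rw [zero_smul, map_zero]; exact zero_mem _
    | add x y _ _ h1 h2 => rw [add_smul, map_add]; exact add_mem h1 h2
    | neg x _ h1 => rw [neg_smul, map_neg]; exact neg_mem h1
  induction hx using Submodule.smul_induction_on' with
  | smul a ha m _ => exact key a (h.2 a ha) m
  | add x _ y _ h1 h2 => rw [map_add]; exact add_mem h1 h2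

theorem finsupp_proj (hL : Module.Projective A L) (ι : Type u) :
    Module.Projective A (ι →₀ L) := by
  classical
  have h1 : Module.Projective A (Π₀ _ : ι, L) := inferInstance
  exact Module.Projective.of_equiv (finsuppLequivDFinsupp A).symm

/-- the kernel of a surjection onto a projective module is a retract. -/
theorem exists_retract (f : F →ₗ[L] N)
    (hf : Function.Surjective f) (hN : Module.Projective A N) :
    ∃ r : F →ₗ[A] LinearMap.ker f, ∀ x : LinearMap.ker f, r x = x := by
  obtain ⟨s, hs⟩ := Module.projective_lifting_property (f.restrictScalars A) LinearMap.id hf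
  have hgf : Function.Exact ((LinearMap.ker f).subtype.restrictScalars A) (f.restrictScalars A) :=
    LinearMap.exact_subtype_ker_map f
  have hg : Function.Injective ((LinearMap.ker f).subtype.restrictScalars A) :=
    (LinearMap.ker f).subtype_injective
  have h4 := (hgf.split_tfae hg hf).out 0 1
  obtain ⟨r, hr⟩ := h4.1 ⟨s, hs⟩
  exact ⟨r, fun x => LinearMap.congr_fun hr x⟩

theorem ker_proj (f : F →ₗ[L] N) (hf : Function.Surjective f) (hN : Module.Projective A N)
    (hF : Module.Projective A F) : Module.Projective A (LinearMap.ker f) := by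
  obtain ⟨r, hr⟩ := exists_retract f hf hN
  refine Module.Projective.of_split ((LinearMap.ker f).subtype.restrictScalars A) r ?_
  ext x
  exact congrArg Subtype.val (hr x)

theorem ker_mem (h : IsFibre I J) (f : F →ₗ[L] N) (hf : Function.Surjective f)
    (hN : Module.Projective A N) (x : LinearMap.ker f)
    (hx : (LinearMap.ker f).subtype x ∈ (I • ⊤ : Submodule L F)) :
    x ∈ (I • ⊤ : Submodule L (LinearMap.ker f)) := by
  obtain ⟨r, hr⟩ := exists_retract f hf hN
  have := retract_mem h r hx
  rwa [Submodule.subtype_apply, hr x] at this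

theorem pd_ker_restrict (f : F →ₗ[L] N) (hf : Function.Surjective f)
    (hF : Module.Projective A F) (n : ℕ) :
    PdLE A N (n + 1) ↔ PdLE A (LinearMap.ker f) n :=
  pdLE_succ ((LinearMap.ker f).subtype.restrictScalars A)
      (f.restrictScalars A) (LinearMap.ker f).subtype_injective hf
      (LinearMap.exact_subtype_ker_map f) hF n

theorem pd_ker_red [I.IsTwoSided] (h : IsFibre I J) (f : F →ₗ[L] N) (hf : Function.Surjective f)
    (hF : Module.Projective L F) (hN : Module.Projective A N) (n : ℕ) :
    PdLE (L ⧸ I) (Red I N) (n + 1) ↔ PdLE (L ⧸ I) (Red I (LinearMap.ker f)) n :=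
  pdLE_succ (redMap I (LinearMap.ker f).subtype)
      (redMap I f) (redMap_injective I (ker_mem h f hf hN)) (redMap_surjective I hf)
      (redMap_exact I hf (LinearMap.exact_subtype_ker_map f)) (red_projective I) n

variable (L N) in
/-- the standard free cover. -/
noncomputable def cov : (N →₀ L) →ₗ[L] N := Finsupp.linearCombination L id

variable (L N) in
theorem cov_surjective : Function.Surjective (cov L N) :=
  Finsupp.linearCombination_id_surjective L N

variable [IsScalarTower A L L]

theorem proj_restrict (hL : Module.Projective A L) (hN : Module.Projective L N) :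
    Module.Projective A N := by
  obtain ⟨s, hs⟩ := hN.out
  have h1 : Module.Projective A (N →₀ L) := finsupp_proj hL N
  refine Module.Projective.of_split (s.restrictScalars A)
    ((Finsupp.linearCombination L id : (N →₀ L) →ₗ[L] N).restrictScalars A) ?_
  ext x
  exact hs x

theorem pd_restrict (hL : Module.Projective A L) (n : ℕ) :
    ∀ (N : Type u) [AddCommGroup N] [Module L N] [Module A N] [IsScalarTower A L N],
      PdLE L N n → PdLE A N n := by
  induction n with
  | zero =>
    intro N _ _ _ _ h
    rw [pdLE_zero] at h ⊢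
    exact proj_restrict hL h
  | succ n ih =>
    intro N _ _ _ _ h
    have h1 := (pdLE_ker (cov L N) (cov_surjective L N) inferInstance n).1 h
    exact (pd_ker_restrict (cov L N) (cov_surjective L N) (finsupp_proj hL N) n).2 (ih _ h1)

variable [I.IsTwoSided]

theorem pd_red (h : IsFibre I J) (hL : Module.Projective A L) (n : ℕ) :
    ∀ (N : Type u) [AddCommGroup N] [Module L N] [Module A N] [IsScalarTower A L N],
      Module.Projective A N → PdLE L N n → PdLE (L ⧸ I) (Red I N) n := by
  induction n with
  | zero =>
    intro N _ _ _ _ _ hN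
    rw [pdLE_zero] at hN ⊢
    exact red_projective I
  | succ n ih =>
    intro N _ _ _ _ hA hN
    have h1 := (pdLE_ker (cov L N) (cov_surjective L N) inferInstance n).1 hN
    have hK := ker_proj (cov L N) (cov_surjective L N) hA (finsupp_proj hL N)
    exact (pd_ker_red h (cov L N) (cov_surjective L N) inferInstance hA n).2 (ih _ hK h1)

theorem pd_of_red (h : IsFibre I J) (hL : Module.Projective A L) (hI : IsNilpotent I) (n : ℕ) :
    ∀ (N : Type u) [AddCommGroup N] [Module L N] [Module A N] [IsScalarTower A L N],
      Module.Projective A N → PdLE (L ⧸ I) (Red I N) n → PdLE L N n := by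
  induction n with
  | zero =>
    intro N _ _ _ _ hA hN
    rw [pdLE_zero] at hN ⊢
    have hgf := LinearMap.exact_subtype_ker_map (cov L N)
    exact projective_of_red I (K := LinearMap.ker (cov L N))
      (g := (LinearMap.ker (cov L N)).subtype) (f := cov L N)
      (LinearMap.ker (cov L N)).subtype_injective (cov_surjective L N) hgf
      (fun x hx => ker_mem h (cov L N) (cov_surjective L N) hA x hx) hN hI
  | succ n ih =>
    intro N _ _ _ _ hA hN
    have hK := ker_proj (cov L N) (cov_surjective L N) hA (finsupp_proj hL N)
    have h2 := (pd_ker_red h (cov L N) (cov_surjective L N) inferInstance hA n).1 hN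
    exact (pdLE_ker (cov L N) (cov_surjective L N) inferInstance n).2 (ih _ hK h2)

/-- The main induction. -/
theorem pd_fib [IsNoetherianRing L] (h : IsFibre I J)
    (hL : Module.Projective A L) (hI : IsNilpotent I) {b : ℕ} (hb : FindimLE (L ⧸ I) b) (a : ℕ) :
    ∀ (N : Type u) [AddCommGroup N] [Module L N] [Module A N] [IsScalarTower A L N],
      Module.Finite L N → PdLE A N a → (∃ m, PdLE L N m) → PdLE L N (a + b) := by
  induction a with
  | zero =>
    intro N _ _ _ _ hfin hA ⟨m, hm⟩
    rw [pdLE_zero] at hA
    rw [Nat.zero_add]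
    have h1 := pd_red h hL m N hA hm
    exact pd_of_red h hL hI b N hA (hb _ (red_finite I) ⟨m, h1⟩)
  | succ a ih =>
    intro N _ _ _ _ hfin hA ⟨m, hm⟩
    obtain ⟨k, f₀, hf₀⟩ := Module.Finite.exists_fin' L N
    let e : (ULift.{u} (Fin k) → L) ≃ₗ[L] (Fin k → L) :=
      LinearEquiv.funCongrLeft L L Equiv.ulift.symm
    let f : (ULift.{u} (Fin k) → L) →ₗ[L] N := f₀ ∘ₗ e.toLinearMap
    have hf : Function.Surjective f := hf₀.comp e.surjective
    have hFL : Module.Projective L (ULift.{u} (Fin k) → L) := inferInstance
    have hF : Module.Projective A (ULift.{u} (Fin k) → L) := proj_restrict hL hFL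
    have h1 := (pdLE_ker f hf hFL m).1 (pdLE_mono (Nat.le_succ m) hm)
    have h2 := (pd_ker_restrict f hf hF a).1 hA
    have h3 : Module.Finite L (LinearMap.ker f) := inferInstance
    have h4 := ih (LinearMap.ker f) h3 h2 ⟨m, h1⟩
    have h5 := (pdLE_ker f hf hFL (a + b)).2 h4
    have : a + 1 + b = a + b + 1 := by omega
    rw [this]
    exact h5

/-- **The fibration inequality** `findim L ≤ findim A + findim (L / I)`. -/
theorem findim_fib [IsNoetherianRing L] [Module.Finite A L] (h : IsFibre I J)
    (hL : Module.Projective A L) (hI : IsNilpotent I) {a b : ℕ} (ha : FindimLE A a)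
    (hb : FindimLE (L ⧸ I) b) : FindimLE L (a + b) := by
  intro N _ _ hfin ⟨m, hm⟩
  let _ : Module A N := Module.compHom N
    ({ toFun := fun x => x • (1 : L)
       map_one' := one_smul _ _
       map_mul' := fun x y => by
        rw [mul_smul, smul_mul_assoc, one_mul]
       map_zero' := zero_smul _ _
       map_add' := fun x y => add_smul _ _ _ } : A →+* L)
  have : IsScalarTower A L N := ⟨fun x y n => by
    change (x • y) • n = (x • (1 : L)) • y • n
    rw [← mul_smul, smul_mul_assoc, one_mul]⟩
  have h1 : Module.Finite A N := Module.Finite.trans L N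
  have h2 := ha N h1 ⟨m, pd_restrict hL m N hm⟩
  exact pd_fib h hL hI hb a N hfin h2 ⟨m, hm⟩

end

end Vale.Agent.H17.P176
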