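import Vale.Agent.H17.P176.Tens

/-!
# Finitistic dimension of tensor products (P176)
-/

namespace Vale.Agent.H17.P176

open CategoryTheory Submodule TensorProduct

universe u

section
variable (k : Type u) [Field k] (A B : Type u) [Ring A] [Ring B] [Algebra k A] [Algebra k B]
  (J : Ideal A) [J.IsTwoSided]

/-- `A ⊗ B → B ⊗ A/J`. -/
noncomputable def psi : A ⊗[k] B →ₐ[k] B ⊗[k] (A ⧸ J) :=
  (Algebra.TensorProduct.comm k (A ⧸ J) B).toAlgHom.comp
    (Algebra.TensorProduct.map (Ideal.Quotient.mkₐ k J) (AlgHom.id k B))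

theorem psi_tmul (a : A) (b : B) : psi k A B J (a ⊗ₜ b) = b ⊗ₜ (Ideal.Quotient.mk J a) := by
  unfold psi
  simp

theorem psi_surjective : Function.Surjective (psi k A B J) := by
  intro z
  induction z using TensorProduct.induction_on with
  | zero => exact ⟨0, map_zero _⟩
  | tmul b s =>
    obtain ⟨a, rfl⟩ := Ideal.Quotient.mk_surjective s
    exact ⟨a ⊗ₜ b, psi_tmul k A B J a b⟩
  | add x y hx hy =>
    obtain ⟨x, rfl⟩ := hx
    obtain ⟨y, rfl⟩ := hy
    exact ⟨x + y, map_add _ _ _⟩

theorem fibre_psi : IsFibre (RingHom.ker (psi k A B J)) (J : Set A) := by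
  constructor
  · intro j hj
    rw [RingHom.mem_ker, Algebra.TensorProduct.one_def, TensorProduct.smul_tmul', smul_eq_mul,
      mul_one, psi_tmul, Ideal.Quotient.eq_zero_iff_mem.2 hj, TensorProduct.tmul_zero]
  · intro x hx
    rw [RingHom.mem_ker] at hx
    have h1 : (Algebra.TensorProduct.map (Ideal.Quotient.mkₐ k J) (AlgHom.id k B)) x = 0 := by
      have : (Algebra.TensorProduct.comm k (A ⧸ J) B)
          ((Algebra.TensorProduct.map (Ideal.Quotient.mkₐ k J) (AlgHom.id k B)) x) = 0 := hx
      rwa [map_eq_zero_iff _ (AlgEquiv.injective _)] at this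
    let Jk : Submodule k A := J.restrictScalars k
    have hex : Function.Exact Jk.subtype (Ideal.Quotient.mkₐ k J).toLinearMap := by
      intro a
      constructor
      · intro ha
        have : a ∈ J := Ideal.Quotient.eq_zero_iff_mem.1 ha
        exact ⟨⟨a, this⟩, rfl⟩
      · rintro ⟨a, rfl⟩
        exact Ideal.Quotient.eq_zero_iff_mem.2 a.2
    have hsurj : Function.Surjective (Ideal.Quotient.mkₐ k J).toLinearMap :=
      Ideal.Quotient.mk_surjective
    have h2 := rTensor_exact B hex hsurj
    have h3 : LinearMap.rTensor B (Ideal.Quotient.mkₐ k J).toLinearMap x = 0 := h1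
    obtain ⟨z, rfl⟩ := (h2 x).1 h3
    clear hx h1 h3
    induction z using TensorProduct.induction_on with
    | zero => rw [map_zero]; exact zero_mem _
    | tmul j b =>
      refine AddSubgroup.subset_closure ⟨j.1, j.2, 1 ⊗ₜ b, ?_⟩
      rw [TensorProduct.smul_tmul', smul_eq_mul, mul_one]
      rfl
    | add x y hx hy => rw [map_add]; exact add_mem hx hy

end

theorem findim_tensor (k : Type u) [Field k] [IsAlgClosed k] (A B : Type u) [Ring A] [Ring B]
    [Algebra k A] [Algebra k B] [FiniteDimensional k A] [FiniteDimensional k B] (a b : ℕ)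
    (ha : FindimLE A a) (hb : FindimLE B b) : FindimLE (A ⊗[k] B) (a + b) := by
  have hAa : IsArtinianRing A := IsArtinianRing.of_finite k A
  let J : Ideal A := Ring.jacobson A
  have hJ : IsNilpotent J := IsSemiprimaryRing.isNilpotent
  have hss : IsSemisimpleRing (A ⧸ J) := IsSemiprimaryRing.isSemisimpleRing
  have hfd : FiniteDimensional k (A ⧸ J) :=
    Module.Finite.of_surjective (Ideal.Quotient.mkₐ k J).toLinearMap Ideal.Quotient.mk_surjective
  have h1 : FindimLE (B ⊗[k] (A ⧸ J)) b := findim_tensor_sep (sepIdem_semisimple (A ⧸ J)) hb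
  let I : Ideal (A ⊗[k] B) := RingHom.ker (psi k A B J)
  have h2 : FindimLE ((A ⊗[k] B) ⧸ I) b :=
    findim_equiv (RingHom.quotientKerEquivOfSurjective (f := (psi k A B J).toRingHom)
      (psi_surjective k A B J)).symm h1
  have hfib := fibre_psi k A B J
  have hN : IsNoetherianRing (A ⊗[k] B) := IsNoetherianRing.of_finite k (A ⊗[k] B)
  have hF : Module.Finite A (A ⊗[k] B) := inferInstance
  exact findim_fib hfib (inferInstance : Module.Projective A (A ⊗[k] B))
    (isNilpotent_of_fibre hfib hJ) ha h2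

end Vale.Agent.H17.P176
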