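import Mathlib

/-!
# Projective dimension of modules: basic lemmas (P176)
-/

namespace Vale.Agent.H17.P176

open CategoryTheory

universe u

/-- `pd_R M ≤ n`. -/
def PdLE (R : Type u) [Ring R] (M : Type u) [AddCommGroup M] [Module R M] (n : ℕ) : Prop :=
  HasProjectiveDimensionLE (ModuleCat.of R M) n

/-- `findim R ≤ n`: every finitely generated module of finite projective dimension has projective
dimension at most `n`. -/
def FindimLE (R : Type u) [Ring R] (n : ℕ) : Prop :=
  ∀ (M : Type u) [AddCommGroup M] [Module R M], Module.Finite R M → (∃ m, PdLE R M m) →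
    PdLE R M n

section
variable {R : Type u} [Ring R]

theorem pdLE_zero {M : Type u} [AddCommGroup M] [Module R M] :
    PdLE R M 0 ↔ Module.Projective R M := by
  unfold PdLE
  rw [← projective_iff_hasProjectiveDimensionLE_zero, IsProjective.iff_projective]

theorem pdLE_mono {M : Type u} [AddCommGroup M] [Module R M] {n m : ℕ} (h : n ≤ m)
    (hM : PdLE R M n) : PdLE R M m := by
  unfold PdLE HasProjectiveDimensionLE at *
  exact hasProjectiveDimensionLT_of_ge _ (n + 1) (m + 1) (by omega)

theorem pdLE_succ {K F N : Type u} [AddCommGroup K] [Module R K] [AddCommGroup F] [Module R F]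
    [AddCommGroup N] [Module R N] (g : K →ₗ[R] F) (f : F →ₗ[R] N) (hg : Function.Injective g)
    (hf : Function.Surjective f) (hgf : Function.Exact g f) (hF : Module.Projective R F) (n : ℕ) :
    PdLE R N (n + 1) ↔ PdLE R K n := by
  have h0 : (ModuleCat.ofHom g) ≫ (ModuleCat.ofHom f) = 0 := by
    ext x
    exact (hgf (g x)).2 ⟨x, rfl⟩
  let S : ShortComplex (ModuleCat.{u} R) := ⟨ModuleCat.ofHom g, ModuleCat.ofHom f, h0⟩
  have hS : S.ShortExact := by
    have he : S.Exact := by
      rw [ShortComplex.moduleCat_exact_iff]
      intro x hx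
      exact (hgf x).1 hx
    refine { exact := he, mono_f := ?_, epi_g := ?_ }
    · exact (ModuleCat.mono_iff_injective _).2 hg
    · exact (ModuleCat.epi_iff_surjective _).2 hf
  have hP : Projective S.X₂ := (IsProjective.iff_projective F).1 hF
  exact hS.hasProjectiveDimensionLT_X₃_iff n hP

theorem pdLE_ker {F N : Type u} [AddCommGroup F] [Module R F]
    [AddCommGroup N] [Module R N] (f : F →ₗ[R] N)
    (hf : Function.Surjective f) (hF : Module.Projective R F) (n : ℕ) :
    PdLE R N (n + 1) ↔ PdLE R (LinearMap.ker f) n :=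
  pdLE_succ (LinearMap.ker f).subtype f (LinearMap.ker f).subtype_injective hf
    (LinearMap.exact_subtype_ker_map f) hF n

end

end Vale.Agent.H17.P176
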