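import Vale.Agent.H17.P176.Pd

/-!
# Reduction modulo a two-sided ideal (P176)
-/

namespace Vale.Agent.H17.P176

open CategoryTheory Submodule

universe u

section
variable {L : Type u} [Ring L] (I : Ideal L) [I.IsTwoSided]

/-- `N / I N`. -/
abbrev Red (N : Type u) [AddCommGroup N] [Module L N] : Type u := N ⧸ (I • (⊤ : Submodule L N))

variable {F N K : Type u} [AddCommGroup F] [Module L F] [AddCommGroup N] [Module L N]
  [AddCommGroup K] [Module L K]

theorem red_smul (r : L) (x : Red I N) : Ideal.Quotient.mk I r • x = r • x := by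
  obtain ⟨m, rfl⟩ := Submodule.Quotient.mk_surjective _ x
  rfl

/-- A semilinear map through the quotient ring. -/
def liftLin {Y Z : Type u} [AddCommGroup Y] [AddCommGroup Z] [Module (L ⧸ I) Y]
    [Module (L ⧸ I) Z] (f : Y →+ Z)
    (h : ∀ (r : L) (y : Y), f (Ideal.Quotient.mk I r • y) = Ideal.Quotient.mk I r • f y) :
    Y →ₗ[L ⧸ I] Z where
  toFun := f
  map_add' := map_add f
  map_smul' := by
    intro b y
    obtain ⟨r, rfl⟩ := Ideal.Quotient.mk_surjective b
    exact h r y

omit [I.IsTwoSided] in
theorem red_le (f : F →ₗ[L] N) : (I • ⊤ : Submodule L F) ≤ (I • ⊤ : Submodule L N).comap f := by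
  rw [← Submodule.map_le_iff_le_comap, Submodule.map_smul'']
  exact Submodule.smul_mono le_rfl le_top

/-- the induced map. -/
def redMap (f : F →ₗ[L] N) : Red I F →ₗ[L ⧸ I] Red I N where
  toFun := Submodule.mapQ _ _ f (red_le I f)
  map_add' := map_add _
  map_smul' := by
    intro b x
    obtain ⟨r, rfl⟩ := Ideal.Quotient.mk_surjective b
    rw [RingHom.id_apply, red_smul, red_smul, map_smul]

@[simp]
theorem redMap_mk (f : F →ₗ[L] N) (x : F) :
    redMap I f (Submodule.Quotient.mk x) = Submodule.Quotient.mk (f x) := rfl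

theorem redMap_surjective {f : F →ₗ[L] N} (hf : Function.Surjective f) :
    Function.Surjective (redMap I f) := by
  intro y
  obtain ⟨n, rfl⟩ := Submodule.Quotient.mk_surjective _ y
  obtain ⟨x, rfl⟩ := hf n
  exact ⟨Submodule.Quotient.mk x, rfl⟩

/-- The hypothesis making the reduced sequence exact. -/
theorem redMap_exact {g : K →ₗ[L] F} {f : F →ₗ[L] N} (hf : Function.Surjective f)
    (hgf : Function.Exact g f) : Function.Exact (redMap I g) (redMap I f) := by
  intro y
  constructor
  · intro hy
    obtain ⟨x, rfl⟩ := Submodule.Quotient.mk_surjective _ y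
    rw [redMap_mk, Submodule.Quotient.mk_eq_zero] at hy
    have h1 : (I • ⊤ : Submodule L N) = (I • ⊤ : Submodule L F).map f := by
      rw [Submodule.map_smul'', Submodule.map_top, LinearMap.range_eq_top.2 hf]
    rw [h1] at hy
    obtain ⟨z, hz, hzx⟩ := hy
    have h2 : f (x - z) = 0 := by rw [map_sub, hzx, sub_self]
    obtain ⟨k, hk⟩ := (hgf _).1 h2
    refine ⟨Submodule.Quotient.mk k, ?_⟩
    rw [redMap_mk, hk, Submodule.Quotient.eq]
    have : x - z - x = -z := by abel
    rw [this]
    exact neg_mem hz
  · rintro ⟨k, rfl⟩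
    obtain ⟨z, rfl⟩ := Submodule.Quotient.mk_surjective _ k
    rw [redMap_mk, redMap_mk, (hgf (g z)).2 ⟨z, rfl⟩]
    rfl

theorem redMap_injective {g : K →ₗ[L] F} 
    (h : ∀ x : K, g x ∈ (I • ⊤ : Submodule L F) → x ∈ (I • ⊤ : Submodule L K)) :
    Function.Injective (redMap I g) := by
  rw [injective_iff_map_eq_zero]
  intro y hy
  obtain ⟨x, rfl⟩ := Submodule.Quotient.mk_surjective _ y
  rw [redMap_mk, Submodule.Quotient.mk_eq_zero] at hy
  rw [Submodule.Quotient.mk_eq_zero]
  exact h x hy

theorem red_finite [Module.Finite L N] : Module.Finite (L ⧸ I) (Red I N) := by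
  have h : Module.Finite L (Red I N) := inferInstance
  obtain ⟨s, hs⟩ := h
  refine ⟨s, ?_⟩
  rw [eq_top_iff]
  intro x _
  have hx : x ∈ Submodule.span L (s : Set (Red I N)) := by rw [hs]; trivial
  induction hx using Submodule.span_induction with
  | mem y hy => exact Submodule.subset_span hy
  | zero => exact zero_mem _
  | add y z _ _ h1 h2 => exact add_mem (h1 trivial) (h2 trivial)
  | smul r y _ h1 =>
    rw [← red_smul]
    exact Submodule.smul_mem _ _ (h1 trivial)

theorem red_projective [Module.Projective L N] : Module.Projective (L ⧸ I) (Red I N) := by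
  apply Module.Projective.of_lifting_property
  intro Y Z _ _ _ _ q h hq
  let _ : Module L Y := Module.compHom Y (Ideal.Quotient.mk I)
  let _ : Module L Z := Module.compHom Z (Ideal.Quotient.mk I)
  let q' : Y →ₗ[L] Z :=
    { toFun := q
      map_add' := map_add q
      map_smul' := fun r y => by
        change q (Ideal.Quotient.mk I r • y) = Ideal.Quotient.mk I r • q y
        rw [map_smul] }
  let h' : N →ₗ[L] Z :=
    { toFun := fun n => h (Submodule.Quotient.mk n)
      map_add' := fun a b => by rw [Submodule.Quotient.mk_add, map_add]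
      map_smul' := fun r y => by
        change h (Submodule.Quotient.mk (r • y)) = Ideal.Quotient.mk I r • h _
        rw [← map_smul]
        rfl }
  obtain ⟨l, hl⟩ := Module.projective_lifting_property q' h' hq
  have hk : (I • ⊤ : Submodule L N) ≤ LinearMap.ker l := by
    rw [Submodule.smul_le]
    intro r hr n _
    rw [LinearMap.mem_ker, map_smul]
    change Ideal.Quotient.mk I r • l n = 0
    rw [Ideal.Quotient.eq_zero_iff_mem.2 hr, zero_smul]
  let l' : Red I N →ₗ[L] Y := Submodule.liftQ _ l hk
  refine ⟨liftLin I l'.toAddMonoidHom ?_, ?_⟩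
  · intro r x
    change l' (Ideal.Quotient.mk I r • x) = Ideal.Quotient.mk I r • l' x
    rw [red_smul, map_smul]
    rfl
  · have h1 : ∀ n, q (l n) = h (Submodule.Quotient.mk n) := fun n => LinearMap.congr_fun hl n
    apply LinearMap.ext
    intro x
    obtain ⟨n, rfl⟩ := Submodule.Quotient.mk_surjective _ x
    exact h1 n

/-- Extension of homomorphisms through nilpotent ideals. -/
theorem exists_extend {g : K →ₗ[L] F} {f : F →ₗ[L] N} [Module.Projective L F]
    (hf : Function.Surjective f) (hgf : Function.Exact g f)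
    (hinj : ∀ x : K, g x ∈ (I • ⊤ : Submodule L F) → x ∈ (I • ⊤ : Submodule L K))
    (hN : Module.Projective (L ⧸ I) (Red I N)) (m : ℕ) :
    ∀ (X : Type u) [AddCommGroup X] [Module L X], (I ^ m • (⊤ : Submodule L X)) = ⊥ →
      ∀ k : K →ₗ[L] X, ∃ k' : F →ₗ[L] X, k' ∘ₗ g = k := by
  obtain ⟨ρ, hρ⟩ : ∃ ρ : Red I F →ₗ[L ⧸ I] Red I K, ρ ∘ₗ redMap I g = LinearMap.id := by
    have h1 := redMap_injective I hinj
    have h2 := redMap_exact I hf hgf
    have h3 := redMap_surjective I hf
    obtain ⟨s, hs⟩ := Module.projective_lifting_property (redMap I f) LinearMap.id h3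
    have h4 := (h2.split_tfae h1 h3).out 0 1
    exact h4.1 ⟨s, hs⟩
  let ρ' : Red I F →ₗ[L] Red I K :=
    { toFun := ρ
      map_add' := map_add ρ
      map_smul' := fun r y => by
        rw [RingHom.id_apply, ← red_smul, map_smul, red_smul] }
  induction m with
  | zero =>
    intro X _ _ hX k
    have h0 : ∀ x : X, x = 0 := by
      intro x
      have h1 : x ∈ (I ^ 0 • (⊤ : Submodule L X)) := by
        rw [Submodule.pow_zero, Ideal.one_eq_top, Submodule.top_smul]
        trivial
      rw [hX] at h1
      exact (Submodule.mem_bot L).1 h1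
    exact ⟨0, by ext x; exact (h0 _).symm⟩
  | succ m ih =>
    intro X _ _ hX k
    let X' : Submodule L X := I • ⊤
    have hq : (I ^ m • (⊤ : Submodule L X')) = ⊥ := by
      rw [eq_bot_iff, Submodule.smul_le]
      intro r hr y _
      have h1 : r • (y : X) ∈ (I ^ (m + 1) • (⊤ : Submodule L X)) := by
        rw [Submodule.pow_succ, Submodule.mul_smul]
        exact Submodule.smul_mem_smul hr y.2
      rw [hX, Submodule.mem_bot] at h1
      rw [Submodule.mem_bot]
      exact Subtype.ext h1
    let e : F →ₗ[L] X ⧸ X' :=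
      { toFun := fun x => redMap I k (ρ' (Submodule.Quotient.mk x))
        map_add' := fun x y => by rw [Submodule.Quotient.mk_add, map_add, map_add]
        map_smul' := fun r x => by
          rw [Submodule.Quotient.mk_smul, map_smul, ← red_smul, map_smul, red_smul]
          rfl }
    obtain ⟨e', he'⟩ := Module.projective_lifting_property X'.mkQ e X'.mkQ_surjective
    have hd : ∀ x : K, (k - e' ∘ₗ g) x ∈ X' := by
      intro x
      have h1 : ρ (Submodule.Quotient.mk (g x)) = Submodule.Quotient.mk x :=
        LinearMap.congr_fun hρ (Submodule.Quotient.mk x)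
      have h2 := LinearMap.congr_fun he' (g x)
      have h3 : (Submodule.Quotient.mk (e' (g x)) : X ⧸ X') = Submodule.Quotient.mk (k x) := by
        refine h2.trans ?_
        change redMap I k (ρ (Submodule.Quotient.mk (g x))) = _
        rw [h1]
        rfl
      rw [LinearMap.sub_apply, LinearMap.comp_apply, ← Submodule.Quotient.mk_eq_zero,
        Submodule.Quotient.mk_sub, h3, sub_self]
    obtain ⟨d, hd'⟩ := ih X' hq ((k - e' ∘ₗ g).codRestrict X' hd)
    refine ⟨e' + X'.subtype ∘ₗ d, ?_⟩
    ext x
    have h1 := LinearMap.congr_fun hd' x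
    have h2 : (d (g x) : X) = k x - e' (g x) := by
      rw [LinearMap.comp_apply] at h1
      rw [h1]
      rfl
    change e' (g x) + (d (g x) : X) = k x
    rw [h2]
    abel

/-- Lifting projectivity through a nilpotent ideal. -/
theorem projective_of_red {g : K →ₗ[L] F} {f : F →ₗ[L] N} [Module.Projective L F]
    (hg : Function.Injective g) (hf : Function.Surjective f) (hgf : Function.Exact g f)
    (hinj : ∀ x : K, g x ∈ (I • ⊤ : Submodule L F) → x ∈ (I • ⊤ : Submodule L K))
    (hN : Module.Projective (L ⧸ I) (Red I N)) (hI : IsNilpotent I) :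
    Module.Projective L N := by
  obtain ⟨m, hm⟩ := hI
  obtain ⟨r, hr⟩ := exists_extend I hf hgf hinj hN m K
    (by rw [hm, Submodule.zero_eq_bot, Submodule.bot_smul]) LinearMap.id
  have h4 := (hgf.split_tfae hg hf).out 0 1
  obtain ⟨s, hs⟩ := h4.2 ⟨r, hr⟩
  exact Module.Projective.of_split s f hs

end

end Vale.Agent.H17.P176
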