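import Vale.Agent.H17.P176.Fib

/-!
# Separable base change and ring isomorphisms (P176)
-/

namespace Vale.Agent.H17.P176

open CategoryTheory Submodule TensorProduct

universe u

/-- If every surjection of `T`-modules which splits over `B` splits over `T`, then projective
dimensions over `T` are at most those over `B`. -/
theorem pd_sep {B T : Type u} [Ring B] [Ring T] [Module B T] [IsScalarTower B T T]
    (hT : Module.Projective B T)
    (havg : ∀ (X Y : Type u) [AddCommGroup X] [Module T X] [Module B X] [IsScalarTower B T X]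
      [AddCommGroup Y] [Module T Y] [Module B Y] [IsScalarTower B T Y] (s : X →ₗ[B] Y)
      (f : Y →ₗ[T] X), (∀ x, f (s x) = x) → ∃ s' : X →ₗ[T] Y, ∀ x, f (s' x) = x) (b : ℕ) :
    ∀ (N : Type u) [AddCommGroup N] [Module T N] [Module B N] [IsScalarTower B T N],
      PdLE B N b → PdLE T N b := by
  induction b with
  | zero =>
    intro N _ _ _ _ h
    rw [pdLE_zero] at h ⊢
    obtain ⟨s, hs⟩ := Module.projective_lifting_property ((cov T N).restrictScalars B)
      LinearMap.id (cov_surjective T N)
    obtain ⟨s', hs'⟩ := havg N (N →₀ T) s (cov T N) (fun x => LinearMap.congr_fun hs x)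
    exact Module.Projective.of_split s' (cov T N) (LinearMap.ext hs')
  | succ b ih =>
    intro N _ _ _ _ h
    have h1 := (pd_ker_restrict (cov T N) (cov_surjective T N) (finsupp_proj hT N) b).1 h
    exact (pdLE_ker (cov T N) (cov_surjective T N) inferInstance b).2 (ih _ h1)

/-- the ring homomorphism given by a module structure. -/
def structHom (B T : Type u) [Ring B] [Ring T] [Module B T] [IsScalarTower B T T] : B →+* T where
  toFun := fun x => x • (1 : T)
  map_one' := one_smul _ _
  map_mul' := fun x y => by rw [mul_smul, smul_mul_assoc, one_mul]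
  map_zero' := zero_smul _ _
  map_add' := fun x y => add_smul _ _ _

theorem findim_sep {B T : Type u} [Ring B] [Ring T] [Module B T] [IsScalarTower B T T]
    [Module.Finite B T] (hT : Module.Projective B T)
    (havg : ∀ (X Y : Type u) [AddCommGroup X] [Module T X] [Module B X] [IsScalarTower B T X]
      [AddCommGroup Y] [Module T Y] [Module B Y] [IsScalarTower B T Y] (s : X →ₗ[B] Y)
      (f : Y →ₗ[T] X), (∀ x, f (s x) = x) → ∃ s' : X →ₗ[T] Y, ∀ x, f (s' x) = x) {b : ℕ}
    (hb : FindimLE B b) : FindimLE T b := by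
  intro N _ _ hfin ⟨m, hm⟩
  let _ : Module B N := Module.compHom N (structHom B T)
  have : IsScalarTower B T N := ⟨fun x y n => by
    change (x • y) • n = (x • (1 : T)) • y • n
    rw [← mul_smul, smul_mul_assoc, one_mul]⟩
  have h1 : Module.Finite B N := Module.Finite.trans T N
  exact pd_sep hT havg b N (hb N h1 ⟨m, pd_restrict hT m N hm⟩)

theorem findim_equiv {R R' : Type u} [Ring R] [Ring R'] (e : R ≃+* R') {b : ℕ}
    (hb : FindimLE R b) : FindimLE R' b := by
  let _ : Module R R' := Module.compHom R' e.toRingHom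
  have hsm : ∀ (r : R) (x : R'), r • x = e r * x := fun r x => rfl
  have : IsScalarTower R R' R' := ⟨fun x y n => by
    rw [hsm, hsm, smul_eq_mul, smul_eq_mul, mul_assoc]⟩
  let l : R ≃ₗ[R] R' :=
    { e with
      map_smul' := fun r x => by
        change e (r * x) = e r * e x
        rw [map_mul] }
  have h1 : Module.Projective R R' := Module.Projective.of_equiv l
  have h2 : Module.Finite R R' := Module.Finite.equiv l
  refine findim_sep h1 ?_ hb
  intro X Y _ _ _ _ _ _ _ _ s f hf
  refine ⟨{ toFun := s, map_add' := map_add s, map_smul' := ?_ }, hf⟩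
  intro t x
  obtain ⟨r, rfl⟩ := e.surjective t
  have h3 : ∀ (Z : Type u) [AddCommGroup Z] [Module R' Z] [Module R Z] [IsScalarTower R R' Z]
      (z : Z), e r • z = r • z := by
    intro Z _ _ _ _ z
    have : r • (1 : R') = e r := by rw [hsm, mul_one]
    rw [← this, smul_assoc, one_smul]
  rw [RingHom.id_apply, h3, h3, map_smul]

/-- Separability idempotents. -/
def SepIdem (k S : Type u) [Field k] [Ring S] [Algebra k S] : Prop :=
  ∃ e : S ⊗[k] S, LinearMap.mul' k S e = 1 ∧
    ∀ c : S, (LinearMap.mulRight k c).lTensor S e = (LinearMap.mulLeft k c).rTensor S e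

section
variable {k S B : Type u} [Field k] [Ring S] [Algebra k S] [Ring B] [Algebra k B]

theorem findim_tensor_sep [FiniteDimensional k S] (hS : SepIdem k S) {b : ℕ} (hb : FindimLE B b) :
    FindimLE (B ⊗[k] S) b := by
  obtain ⟨e, he1, he2⟩ := hS
  refine findim_sep (inferInstance : Module.Projective B (B ⊗[k] S)) ?_ hb
  intro X Y _ _ _ _ _ _ _ _ s f hf
  have hbX : ∀ (b : B) (x : X), (b ⊗ₜ[k] (1 : S)) • x = b • x := by
    intro b x
    have : b ⊗ₜ[k] (1 : S) = b • (1 : B ⊗[k] S) := by
      rw [Algebra.TensorProduct.one_def, TensorProduct.smul_tmul', smul_eq_mul, mul_one]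
    rw [this, smul_assoc, one_smul]
  have hbY : ∀ (b : B) (x : Y), (b ⊗ₜ[k] (1 : S)) • x = b • x := by
    intro b x
    have : b ⊗ₜ[k] (1 : S) = b • (1 : B ⊗[k] S) := by
      rw [Algebra.TensorProduct.one_def, TensorProduct.smul_tmul', smul_eq_mul, mul_one]
    rw [this, smul_assoc, one_smul]
  let β : X → S →+ S →+ Y := fun v =>
    AddMonoidHom.mk' (fun p => AddMonoidHom.mk'
      (fun q => ((1 : B) ⊗ₜ[k] p) • s (((1 : B) ⊗ₜ[k] q) • v))
      (fun q q' => by rw [TensorProduct.tmul_add, add_smul, map_add, smul_add]))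
      (fun p p' => by
        ext q
        change ((1 : B) ⊗ₜ[k] (p + p')) • s (((1 : B) ⊗ₜ[k] q) • v) = _
        rw [TensorProduct.tmul_add, add_smul]
        rfl)
  have hβ : ∀ v (r : k) (p q : S), β v (r • p) q = β v p (r • q) := by
    intro v r p q
    change ((1 : B) ⊗ₜ[k] (r • p)) • s (((1 : B) ⊗ₜ[k] q) • v) =
      ((1 : B) ⊗ₜ[k] p) • s (((1 : B) ⊗ₜ[k] (r • q)) • v)
    have e1 : (1 : B) ⊗ₜ[k] (r • q) = ((r • (1 : B)) ⊗ₜ[k] (1 : S)) * ((1 : B) ⊗ₜ[k] q) := by
      rw [Algebra.TensorProduct.tmul_mul_tmul, mul_one, one_mul, TensorProduct.tmul_smul,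
        TensorProduct.smul_tmul']
    have e2 : (1 : B) ⊗ₜ[k] (r • p) = ((1 : B) ⊗ₜ[k] p) * ((r • (1 : B)) ⊗ₜ[k] (1 : S)) := by
      rw [Algebra.TensorProduct.tmul_mul_tmul, one_mul, mul_one, TensorProduct.tmul_smul,
        TensorProduct.smul_tmul']
    rw [e1, e2, mul_smul, mul_smul, hbX, hbY, s.map_smul]
  let A : X → S ⊗[k] S →+ Y := fun v => TensorProduct.liftAddHom (β v) (hβ v)
  have hA : ∀ v p q, A v (p ⊗ₜ q) = ((1 : B) ⊗ₜ[k] p) • s (((1 : B) ⊗ₜ[k] q) • v) :=
    fun v p q => rfl
  have hadd : ∀ z v w, A (v + w) z = A v z + A w z := by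
    intro z v w
    induction z using TensorProduct.induction_on with
    | zero => simp only [map_zero, add_zero]
    | tmul p q => rw [hA, hA, hA, smul_add, map_add, smul_add]
    | add x y hx hy => rw [map_add, map_add, map_add, hx, hy]; abel
  have h1 : ∀ (b : B) (c : S) v z, A ((b ⊗ₜ[k] c) • v) z =
      (b ⊗ₜ[k] (1 : S)) • A v ((LinearMap.mulRight k c).lTensor S z) := by
    intro b c v z
    induction z using TensorProduct.induction_on with
    | zero => simp only [map_zero, smul_zero]
    | tmul p q =>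
      rw [LinearMap.lTensor_tmul, hA, hA, LinearMap.mulRight_apply, ← mul_smul, ← mul_smul,
        Algebra.TensorProduct.tmul_mul_tmul, Algebra.TensorProduct.tmul_mul_tmul, one_mul,
        mul_one, one_mul]
      have e1 : b ⊗ₜ[k] (q * c) = (b ⊗ₜ[k] (1 : S)) * ((1 : B) ⊗ₜ[k] (q * c)) := by
        rw [Algebra.TensorProduct.tmul_mul_tmul, mul_one, one_mul]
      have e2 : b ⊗ₜ[k] p = ((1 : B) ⊗ₜ[k] p) * (b ⊗ₜ[k] (1 : S)) := by
        rw [Algebra.TensorProduct.tmul_mul_tmul, mul_one, one_mul]
      rw [e1, e2, mul_smul, mul_smul, hbX, hbY, s.map_smul]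
    | add x y hx hy => rw [map_add, map_add, map_add, hx, hy, smul_add]
  have h2 : ∀ (c : S) v z, A v ((LinearMap.mulLeft k c).rTensor S z) =
      ((1 : B) ⊗ₜ[k] c) • A v z := by
    intro c v z
    induction z using TensorProduct.induction_on with
    | zero => simp only [map_zero, smul_zero]
    | tmul p q =>
      rw [LinearMap.rTensor_tmul, hA, hA, LinearMap.mulLeft_apply, ← mul_smul,
        Algebra.TensorProduct.tmul_mul_tmul, one_mul]
    | add x y hx hy => rw [map_add, map_add, map_add, hx, hy, smul_add]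
  have h3 : ∀ v z, f (A v z) = ((1 : B) ⊗ₜ[k] (LinearMap.mul' k S z)) • v := by
    intro v z
    induction z using TensorProduct.induction_on with
    | zero => simp only [map_zero, TensorProduct.tmul_zero, zero_smul]
    | tmul p q =>
      rw [hA, map_smul, hf, ← mul_smul, Algebra.TensorProduct.tmul_mul_tmul, one_mul,
        LinearMap.mul'_apply]
    | add x y hx hy => rw [map_add, map_add, map_add, hx, hy, TensorProduct.tmul_add, add_smul]
  refine ⟨{ toFun := fun v => A v e, map_add' := fun v w => hadd e v w, map_smul' := ?_ }, ?_⟩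
  · intro t v
    rw [RingHom.id_apply]
    induction t using TensorProduct.induction_on with
    | zero =>
      rw [zero_smul, zero_smul]
      have := hadd e 0 0
      rw [add_zero] at this
      exact left_eq_add.1 this
    | tmul b c =>
      rw [h1, he2, h2, ← mul_smul, Algebra.TensorProduct.tmul_mul_tmul, mul_one, one_mul]
    | add x y hx hy => rw [add_smul, hadd, hx, hy, add_smul]
  · intro x
    change f (A x e) = x
    rw [h3, he1, ← Algebra.TensorProduct.one_def, one_smul]

end

end Vale.Agent.H17.P176
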