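import Vale.Agent.H17.P176.Sep

/-!
# Tensor products (P176)
-/

namespace Vale.Agent.H17.P176

open CategoryTheory Submodule TensorProduct

universe u

section sep
variable {k : Type u} [Field k]

theorem SepIdem.equiv {S S' : Type u} [Ring S] [Algebra k S] [Ring S'] [Algebra k S']
    (φ : S ≃ₐ[k] S') (h : SepIdem k S) : SepIdem k S' := by
  obtain ⟨e, he1, he2⟩ := h
  refine ⟨TensorProduct.map φ.toLinearMap φ.toLinearMap e, ?_, ?_⟩
  · have : ∀ z : S ⊗[k] S, LinearMap.mul' k S' (TensorProduct.map φ.toLinearMap φ.toLinearMap z) =
        φ (LinearMap.mul' k S z) := by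
      intro z
      induction z using TensorProduct.induction_on with
      | zero => simp
      | tmul p q => simp
      | add x y hx hy => rw [map_add, map_add, map_add, map_add, hx, hy]
    rw [this, he1, map_one]
  · intro c
    obtain ⟨c, rfl⟩ := φ.surjective c
    have h1 : ∀ z : S ⊗[k] S, (LinearMap.mulRight k (φ c)).lTensor S'
        (TensorProduct.map φ.toLinearMap φ.toLinearMap z) =
        TensorProduct.map φ.toLinearMap φ.toLinearMap ((LinearMap.mulRight k c).lTensor S z) := by
      intro z
      induction z using TensorProduct.induction_on with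
      | zero => simp
      | tmul p q => simp
      | add x y hx hy => rw [map_add, map_add, map_add, map_add, hx, hy]
    have h2 : ∀ z : S ⊗[k] S, (LinearMap.mulLeft k (φ c)).rTensor S'
        (TensorProduct.map φ.toLinearMap φ.toLinearMap z) =
        TensorProduct.map φ.toLinearMap φ.toLinearMap ((LinearMap.mulLeft k c).rTensor S z) := by
      intro z
      induction z using TensorProduct.induction_on with
      | zero => simp
      | tmul p q => simp
      | add x y hx hy => rw [map_add, map_add, map_add, map_add, hx, hy]
    rw [h1, h2, he2]

theorem sum_single_one (d : ℕ) : ∑ a : Fin d, Matrix.single a a (1 : k) = 1 := by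
  classical
  ext i j
  rw [Matrix.sum_apply, Matrix.one_apply]
  simp only [Matrix.single_apply]
  by_cases h : i = j
  · subst h; simp
  · rw [if_neg h]
    apply Finset.sum_eq_zero
    intro a _
    rw [if_neg]
    rintro ⟨rfl, rfl⟩
    exact h rfl

/-- matrix algebras are separable. -/
theorem sepIdem_matrix (d : ℕ) [NeZero d] : SepIdem k (Matrix (Fin d) (Fin d) k) := by
  classical
  refine ⟨∑ a : Fin d, Matrix.single a 0 (1 : k) ⊗ₜ[k] Matrix.single 0 a (1 : k), ?_, ?_⟩
  · rw [map_sum]
    simp only [LinearMap.mul'_apply, Matrix.single_mul_single_same, mul_one]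
    exact sum_single_one d
  · intro c
    rw [map_sum, map_sum]
    simp only [LinearMap.lTensor_tmul, LinearMap.rTensor_tmul, LinearMap.mulRight_apply,
      LinearMap.mulLeft_apply]
    have h1 : ∀ a : Fin d, Matrix.single (0 : Fin d) a (1 : k) * c =
        ∑ j, c a j • Matrix.single (0 : Fin d) j (1 : k) := by
      intro a
      ext i j
      rw [Matrix.mul_apply, Matrix.sum_apply]
      simp only [Matrix.single_apply, Matrix.smul_apply, smul_eq_mul]
      by_cases h : 0 = i
      · subst h; simp
      · simp [h]
    have h2 : ∀ a : Fin d, c * Matrix.single a (0 : Fin d) (1 : k) =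
        ∑ i, c i a • Matrix.single i (0 : Fin d) (1 : k) := by
      intro a
      ext i j
      rw [Matrix.mul_apply, Matrix.sum_apply]
      simp only [Matrix.single_apply, Matrix.smul_apply, smul_eq_mul]
      by_cases h : 0 = j
      · subst h; simp
      · simp [h]
    calc ∑ a : Fin d, Matrix.single a (0 : Fin d) (1 : k) ⊗ₜ[k]
          (Matrix.single (0 : Fin d) a (1 : k) * c)
        = ∑ a : Fin d, ∑ j : Fin d, c a j •
          (Matrix.single a (0 : Fin d) (1 : k) ⊗ₜ[k] Matrix.single (0 : Fin d) j (1 : k)) := by
          apply Finset.sum_congr rfl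
          intro a _
          rw [h1, TensorProduct.tmul_sum]
          apply Finset.sum_congr rfl
          intro j _
          rw [TensorProduct.tmul_smul]
      _ = ∑ a : Fin d, ∑ i : Fin d, c i a •
          (Matrix.single i (0 : Fin d) (1 : k) ⊗ₜ[k] Matrix.single (0 : Fin d) a (1 : k)) :=
          Finset.sum_comm
      _ = ∑ a : Fin d, (c * Matrix.single a (0 : Fin d) (1 : k)) ⊗ₜ[k]
            Matrix.single (0 : Fin d) a (1 : k) := by
          apply Finset.sum_congr rfl
          intro a _
          rw [h2, TensorProduct.sum_tmul]
          apply Finset.sum_congr rfl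
          intro j _
          rw [TensorProduct.smul_tmul']

/-- finite products of separable algebras are separable. -/
theorem sepIdem_pi {n : ℕ} (S : Fin n → Type u) [∀ i, Ring (S i)] [∀ i, Algebra k (S i)]
    (h : ∀ i, SepIdem k (S i)) : SepIdem k (∀ i, S i) := by
  classical
  choose e he1 he2 using h
  refine ⟨∑ i, TensorProduct.map (LinearMap.single k S i) (LinearMap.single k S i) (e i), ?_, ?_⟩
  · rw [map_sum]
    have : ∀ i, ∀ z : S i ⊗[k] S i, LinearMap.mul' k (∀ i, S i)
        (TensorProduct.map (LinearMap.single k S i) (LinearMap.single k S i) z) =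
        LinearMap.single k S i (LinearMap.mul' k (S i) z) := by
      intro i z
      induction z using TensorProduct.induction_on with
      | zero => simp
      | tmul p q =>
        simp only [TensorProduct.map_tmul, LinearMap.mul'_apply, LinearMap.single_apply]
        rw [← Pi.single_mul]
      | add x y hx hy => rw [map_add, map_add, map_add, map_add, hx, hy]
    simp only [this, he1, LinearMap.single_apply]
    ext i
    simp
  · intro c
    rw [map_sum, map_sum]
    apply Finset.sum_congr rfl
    intro i _
    have h1 : ∀ z : S i ⊗[k] S i, (LinearMap.mulRight k c).lTensor (∀ i, S i)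
        (TensorProduct.map (LinearMap.single k S i) (LinearMap.single k S i) z) =
        TensorProduct.map (LinearMap.single k S i) (LinearMap.single k S i)
          ((LinearMap.mulRight k (c i)).lTensor (S i) z) := by
      intro z
      induction z using TensorProduct.induction_on with
      | zero => simp
      | tmul p q =>
        simp only [TensorProduct.map_tmul, LinearMap.lTensor_tmul, LinearMap.single_apply,
          LinearMap.mulRight_apply]
        congr 1
        ext j
        by_cases hj : j = i
        · subst hj; simp
        · simp [Pi.single_eq_of_ne hj]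
      | add x y hx hy => rw [map_add, map_add, map_add, map_add, hx, hy]
    have h2 : ∀ z : S i ⊗[k] S i, (LinearMap.mulLeft k c).rTensor (∀ i, S i)
        (TensorProduct.map (LinearMap.single k S i) (LinearMap.single k S i) z) =
        TensorProduct.map (LinearMap.single k S i) (LinearMap.single k S i)
          ((LinearMap.mulLeft k (c i)).rTensor (S i) z) := by
      intro z
      induction z using TensorProduct.induction_on with
      | zero => simp
      | tmul p q =>
        simp only [TensorProduct.map_tmul, LinearMap.rTensor_tmul, LinearMap.single_apply,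
          LinearMap.mulLeft_apply]
        congr 1
        ext j
        by_cases hj : j = i
        · subst hj; simp
        · simp [Pi.single_eq_of_ne hj]
      | add x y hx hy => rw [map_add, map_add, map_add, map_add, hx, hy]
    rw [h1, h2, he2]

theorem sepIdem_semisimple [IsAlgClosed k] (S : Type u) [Ring S] [Algebra k S]
    [FiniteDimensional k S] [IsSemisimpleRing S] : SepIdem k S := by
  obtain ⟨n, d, hd, ⟨φ⟩⟩ := IsSemisimpleRing.exists_algEquiv_pi_matrix_of_isAlgClosed k S
  refine SepIdem.equiv φ.symm (sepIdem_pi _ fun i => ?_)
  have := hd i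
  exact sepIdem_matrix (d i)

end sep

section fib

theorem isNilpotent_of_fibre {A L : Type u} [Ring A] [Ring L] [Module A L] [IsScalarTower A L L]
    {I : Ideal L} {J : Ideal A} (h : IsFibre I (J : Set A)) (hJ : IsNilpotent J) :
    IsNilpotent I := by
  obtain ⟨m, hm⟩ := hJ
  refine ⟨m, ?_⟩
  have key : ∀ m : ℕ, ∀ x ∈ I ^ m,
      x ∈ AddSubgroup.closure {z : L | ∃ j ∈ J ^ m, ∃ y : L, z = j • y} := by
    intro m
    induction m with
    | zero =>
      intro x _
      refine AddSubgroup.subset_closure ⟨1, ?_, x, (one_smul _ _).symm⟩
      rw [Submodule.pow_zero, Ideal.one_eq_top]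
      trivial
    | succ m ih =>
      intro x hx
      rw [Submodule.pow_succ] at hx
      induction hx using Submodule.mul_induction_on' with
      | mem_mul_mem a ha b hb =>
        have ha' := ih a ha
        clear ha
        induction ha' using AddSubgroup.closure_induction with
        | mem z hz =>
          obtain ⟨j, hj, y, rfl⟩ := hz
          rw [smul_mul_assoc]
          have hyb := h.2 (y * b) (I.mul_mem_left y hb)
          generalize y * b = w at hyb
          induction hyb using AddSubgroup.closure_induction with
          | mem z hz =>
            obtain ⟨j', hj', y', rfl⟩ := hz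
            refine AddSubgroup.subset_closure ⟨j * j', ?_, y', (mul_smul _ _ _).symm⟩
            rw [Submodule.pow_succ]
            exact Submodule.mul_mem_mul hj hj'
          | zero => rw [smul_zero]; exact zero_mem _
          | add u v _ _ h1 h2 => rw [smul_add]; exact add_mem h1 h2
          | neg u _ h1 => rw [smul_neg]; exact neg_mem h1
        | zero => rw [zero_mul]; exact zero_mem _
        | add u v _ _ h1 h2 => rw [add_mul]; exact add_mem h1 h2
        | neg u _ h1 => rw [neg_mul]; exact neg_mem h1
      | add a _ b _ h1 h2 => exact add_mem h1 h2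
  have hz : {z : L | ∃ j ∈ J ^ m, ∃ y : L, z = j • y} ⊆ ((⊥ : AddSubgroup L) : Set L) := by
    rintro z ⟨j, hj, y, rfl⟩
    rw [hm, Submodule.zero_eq_bot, Submodule.mem_bot] at hj
    rw [hj, zero_smul]
    exact zero_mem _
  rw [Submodule.zero_eq_bot, eq_bot_iff]
  intro x hx
  have h1 := key m x hx
  have h2 := (AddSubgroup.closure_le _).2 hz h1
  exact h2

end fib

end Vale.Agent.H17.P176
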